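import Vale.Agent.Lib.P037.All2

namespace Vale.Agent.Results.P037.A_All2x2

open Vale.Agent.Lib.P037

/-- Q1 (polynomial removal) holds for every binary `2 × 2` pattern `H`. -/
theorem result : ∀ H : Matrix (Fin 2) (Fin 2) Bool, ∃ (c : ℝ) (C : ℕ), 0 < c ∧ 0 < C ∧
    ∀ n : ℕ, 1 ≤ n → ∀ ε : ℝ, 0 < ε → ε < 1 →
    ∀ A : Matrix (Fin n) (Fin n) Bool, ε ≤ dist H A →
      c * ε ^ C * (n : ℝ) ^ (2 * 2) ≤ (numCopies H A : ℝ) :=
  fun H => RP_all2 H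

end Vale.Agent.Results.P037.A_All2x2
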