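import Vale.Agent.Lib.P037.BU.Main

namespace Vale.Agent.Results.P037.A_Blowup2x2

open Vale.Agent.Lib.P037

/-- Q1 (polynomial removal) holds for every `k × k` pattern `H` made of four constant blocks:
`H i j = H0 [a ≤ i] [b ≤ j]` with `0 < a < k`, `0 < b < k` and `H0` an arbitrary `2 × 2` pattern. -/
theorem result : ∀ (k a b : ℕ), 0 < a → a < k → 0 < b → b < k →
    ∀ (H0 : Matrix (Fin 2) (Fin 2) Bool) (H : Matrix (Fin k) (Fin k) Bool),
    (∀ i j, H i j = H0 (if i.val < a then 0 else 1) (if j.val < b then 0 else 1)) →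
    ∃ (c : ℝ) (C : ℕ), 0 < c ∧ 0 < C ∧
    ∀ n : ℕ, 1 ≤ n → ∀ ε : ℝ, 0 < ε → ε < 1 →
    ∀ A : Matrix (Fin n) (Fin n) Bool, ε ≤ dist H A →
      c * ε ^ C * (n : ℝ) ^ (2 * k) ≤ (numCopies H A : ℝ) := by
  intro k a b ha hak hb hbk H0 H hH
  have : H = BU.blow k a b H0 := by
    ext i j
    exact hH i j
  rw [this]
  exact BU.RP_blow k a b ha hak hb hbk H0

end Vale.Agent.Results.P037.A_Blowup2x2
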