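import Vale.Agent.Lib.P037.Params
import Vale.Agent.Lib.P037.FinalArith
import Vale.Agent.Lib.P037.Bridge
import Vale.Agent.Lib.P037.Sym

namespace Vale.Agent.Results.P037.A_I2Removal

open Vale.Agent.Lib.P037

theorem removal_I2 (n : ℕ) (hn : 1 ≤ n) (ε : ℝ) (hε0 : 0 < ε) (hε1 : ε < 1)
    (A : Matrix (Fin n) (Fin n) Bool) (hA : ε ≤ dist !![true, false; false, true] A) :
    1 / (640 * 101 ^ 44) * ε ^ 44 * (n : ℝ) ^ 4 ≤ numCopies !![true, false; false, true] A := by
  have hnpos : (0 : ℝ) < (n : ℝ) ^ 2 := by positivity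
  refine final_arith n _ ε hn hε0 hε1
    (one_le_numCopies_of_dist_pos _ A (lt_of_lt_of_le hε0 hA)) ?_
  intro M u hM hu h1 h2
  obtain ⟨B, hB, hham⟩ := main_bound M u n hM hu h1 h2 (ext A)
  have h3 : ε ≤ (hamming A (res n B) : ℝ) / (n : ℝ) ^ 2 :=
    hA.trans (dist_le _ A (res n B) (isFree_res B hB))
  rw [le_div_iff₀ hnpos, hamming_res] at h3
  refine h3.trans (hham.trans ?_)
  have h4 : ((copiesN n (ext A)).card : ℝ) ≤ (numCopies !![true, false; false, true] A : ℝ) := by
    exact_mod_cast card_copiesN_le A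
  gcongr

/-- Polynomial removal for the two ordered `2 × 2` patterns `[[1,0],[0,1]]` and `[[0,1],[1,0]]`. -/
theorem result : ∃ (c : ℝ) (C : ℕ), 0 < c ∧ 0 < C ∧
    ∀ H : Matrix (Fin 2) (Fin 2) Bool,
      (H = !![true, false; false, true] ∨ H = !![false, true; true, false]) →
      ∀ n : ℕ, 1 ≤ n → ∀ ε : ℝ, 0 < ε → ε < 1 →
      ∀ A : Matrix (Fin n) (Fin n) Bool, ε ≤ dist H A →
        c * ε ^ C * (n : ℝ) ^ (2 * 2) ≤ (numCopies H A : ℝ) := by
  refine ⟨1 / (640 * 101 ^ 44), 44, by positivity, by norm_num, ?_⟩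
  intro H hH n hn ε hε0 hε1 A hA
  rcases hH with rfl | rfl
  · exact removal_I2 n hn ε hε0 hε1 A hA
  · have h1 := removal_I2 n hn ε hε0 hε1 (revCols A) (by
      have := dist_revCols (!![false, true; true, false] : Matrix (Fin 2) (Fin 2) Bool) A
      rw [← revCols_I2, revCols_revCols] at this
      rw [this, revCols_I2]; exact hA)
    have h2 := numCopies_revCols (!![false, true; true, false] : Matrix (Fin 2) (Fin 2) Bool) A
    rw [← revCols_I2, revCols_revCols] at h2
    rw [h2, revCols_I2] at h1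
    exact h1

end Vale.Agent.Results.P037.A_I2Removal
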